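import Mathlib
import Vale.Agent.P064.DSChar

namespace Vale.Agent.Results.P064.DoubleStarForests

/-- `N(G, F)`: the number of subgraphs of `G` isomorphic to `F`.  All graphs live on the vertex set
`Fin n`; isolated vertices play no role, so this is the number of copies of `F` in `G`. -/
noncomputable def count {n : ℕ} (G F : SimpleGraph (Fin n)) : ℕ :=
  Set.ncard {G' : SimpleGraph (Fin n) | G' ≤ G ∧ Nonempty (G' ≃g F)}

/-- `E N(G(n,p), F) = N(K_n, F) p ^ e(F)`: the expected number of copies of `F` in `G(n,p)`. -/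
noncomputable def expCount {n : ℕ} (F : SimpleGraph (Fin n)) (p : ℝ) : ℝ :=
  (count ⊤ F : ℝ) * p ^ F.edgeSet.ncard

/-- `p_E(n,H)`: the least `p ∈ [0,1]` with `E N(G(n,p),F) ≥ 1/2` for every subgraph `F` of `H`. -/
noncomputable def pE {n : ℕ} (H : SimpleGraph (Fin n)) : ℝ :=
  sInf {p : ℝ | 0 ≤ p ∧ p ≤ 1 ∧ ∀ F : SimpleGraph (Fin n), F ≤ H → 1 / 2 ≤ expCount F p}

/-- `p~_E(n,H)`: the least `p ∈ [0,1]` with `E N(G(n,p),F) ≥ N(H,F)/2` for every `F ⊆ H`. -/
noncomputable def pTilde {n : ℕ} (H : SimpleGraph (Fin n)) : ℝ :=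
  sInf {p : ℝ | 0 ≤ p ∧ p ≤ 1 ∧
    ∀ F : SimpleGraph (Fin n), F ≤ H → (count H F : ℝ) / 2 ≤ expCount F p}

/-- `F` is a forest all of whose components are trees of diameter at most three (isolated vertices,
edges, stars, double stars): there is a set `C` of centres such that every vertex outside `C` has at
most one neighbour and every vertex of `C` has at most one neighbour in `C`. -/
def IsDoubleStarForest {n : ℕ} (F : SimpleGraph (Fin n)) : Prop :=
  ∃ C : Set (Fin n), (∀ x, x ∉ C → ∀ y z, F.Adj x y → F.Adj x z → y = z) ∧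
    (∀ x ∈ C, ∀ y ∈ C, ∀ z ∈ C, F.Adj x y → F.Adj x z → y = z)

/-- (1) Let `H` be any graph on `n` vertices and `q ∈ [0,1]` a density at which every subgraph of
`H` has expected count at least `1/2`.  Then for every forest `F` whose components have diameter at
most three (degrees arbitrary), `N(H,F) ≤ E N(G(n, min {1, 97000 q}), F)`.
(2) Hence `p~_E(n,H) ≤ 97000 p_E(n,H)` for every such forest `H`.
(3), (4) The infima defining `p_E(n,H)` and `p~_E(n,H)` are attained.
(5) The class is exactly the class of graphs without a non-backtracking walk with four edges, i.e.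
without cycles and without paths with four edges. -/
theorem result (n : ℕ) (H : SimpleGraph (Fin n)) :
    (∀ q : ℝ, 0 ≤ q → q ≤ 1 →
      (∀ F : SimpleGraph (Fin n), F ≤ H → 1 / 2 ≤ expCount F q) →
      ∀ F : SimpleGraph (Fin n), IsDoubleStarForest F →
        (count H F : ℝ) ≤ expCount F (min 1 (97000 * q))) ∧
    (IsDoubleStarForest H → pTilde H ≤ 97000 * pE H) ∧
    (0 ≤ pE H ∧ pE H ≤ 1 ∧ ∀ F : SimpleGraph (Fin n), F ≤ H → 1 / 2 ≤ expCount F (pE H)) ∧
    (0 ≤ pTilde H ∧ pTilde H ≤ 1 ∧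
      ∀ F : SimpleGraph (Fin n), F ≤ H → (count H F : ℝ) / 2 ≤ expCount F (pTilde H)) ∧
    (∀ F : SimpleGraph (Fin n), IsDoubleStarForest F ↔
      ∀ a b c d e : Fin n, F.Adj a b → F.Adj b c → F.Adj c d → F.Adj d e →
        a ≠ c → b ≠ d → c ≠ e → False) := by
  classical
  have main : ∀ q : ℝ, 0 ≤ q → q ≤ 1 →
      (∀ F : SimpleGraph (Fin n), F ≤ H → 1 / 2 ≤ expCount F q) →
      ∀ F : SimpleGraph (Fin n), IsDoubleStarForest F →
        (count H F : ℝ) ≤ expCount F (min 1 (97000 * q)) :=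
    fun q hq0 hq1 hyp F hF => Vale.Agent.P064.ds_forest_case n H q hq0 hq1 hyp F hF
  have hclosed : ∀ c : SimpleGraph (Fin n) → ℝ, IsClosed {p : ℝ | 0 ≤ p ∧ p ≤ 1 ∧
      ∀ F : SimpleGraph (Fin n), F ≤ H → c F ≤ expCount F p} := by
    intro c
    have : {p : ℝ | 0 ≤ p ∧ p ≤ 1 ∧ ∀ F : SimpleGraph (Fin n), F ≤ H → c F ≤ expCount F p}
        = Set.Ici 0 ∩ (Set.Iic 1 ∩ ⋂ F : SimpleGraph (Fin n), ⋂ _ : F ≤ H,
          {p : ℝ | c F ≤ expCount F p}) := by
      ext p
      simp only [Set.mem_ofPred_eq, Set.mem_inter_iff, Set.mem_Ici, Set.mem_Iic, Set.mem_iInter]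
    rw [this]
    refine isClosed_Ici.inter (isClosed_Iic.inter ?_)
    refine isClosed_iInter fun F => isClosed_iInter fun _ => ?_
    refine isClosed_le continuous_const ?_
    unfold expCount
    fun_prop
  have hbdd : ∀ c : SimpleGraph (Fin n) → ℝ, BddBelow {p : ℝ | 0 ≤ p ∧ p ≤ 1 ∧
      ∀ F : SimpleGraph (Fin n), F ≤ H → c F ≤ expCount F p} :=
    fun c => ⟨0, fun p hp => hp.1⟩
  have hle : ∀ F : SimpleGraph (Fin n), (count H F : ℝ) ≤ (count ⊤ F : ℝ) := by
    intro F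
    exact_mod_cast Vale.Agent.P064.subCount_le_top H F
  have hpos : ∀ F : SimpleGraph (Fin n), (1 : ℝ) ≤ (count ⊤ F : ℝ) := by
    intro F
    have : 0 < count ⊤ F := by
      unfold count
      rw [Set.ncard_pos (Set.toFinite _)]
      exact ⟨F, le_top, ⟨SimpleGraph.Iso.refl⟩⟩
    exact_mod_cast this
  have hE : pE H ∈ {p : ℝ | 0 ≤ p ∧ p ≤ 1 ∧
      ∀ F : SimpleGraph (Fin n), F ≤ H → 1 / 2 ≤ expCount F p} := by
    refine (hclosed fun _ => 1 / 2).csInf_mem ⟨1, zero_le_one, le_rfl, fun F _ => ?_⟩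
      (hbdd fun _ => 1 / 2)
    unfold expCount
    rw [one_pow, mul_one]
    linarith [hpos F]
  have hT : pTilde H ∈ {p : ℝ | 0 ≤ p ∧ p ≤ 1 ∧
      ∀ F : SimpleGraph (Fin n), F ≤ H → (count H F : ℝ) / 2 ≤ expCount F p} := by
    refine (hclosed fun F => (count H F : ℝ) / 2).csInf_mem
      ⟨1, zero_le_one, le_rfl, fun F _ => ?_⟩ (hbdd fun F => (count H F : ℝ) / 2)
    unfold expCount
    rw [one_pow, mul_one]
    linarith [hle F, hpos F]
  refine ⟨main, fun hH => ?_, hE, hT, fun F => Vale.Agent.P064.isDSForest_iff F⟩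
  obtain ⟨h0, h1, hyp⟩ := hE
  have hmem : min 1 (97000 * pE H) ∈ {p : ℝ | 0 ≤ p ∧ p ≤ 1 ∧
      ∀ F : SimpleGraph (Fin n), F ≤ H → (count H F : ℝ) / 2 ≤ expCount F p} := by
    refine ⟨le_min zero_le_one (by positivity), min_le_left _ _, fun F hF => ?_⟩
    have hFs : IsDoubleStarForest F := Vale.Agent.P064.IsDSForest.anti hH hF
    have h2 := main (pE H) h0 h1 hyp F hFs
    have h3 : (0 : ℝ) ≤ (count H F : ℝ) := by positivity
    linarith
  calc pTilde H ≤ min 1 (97000 * pE H) :=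
        csInf_le (hbdd fun F => (count H F : ℝ) / 2) hmem
    _ ≤ 97000 * pE H := min_le_right _ _

end Vale.Agent.Results.P064.DoubleStarForests
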