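import Mathlib
import Vale.Agent.P064.ForestLog

namespace Vale.Agent.Results.P064.Forests

/-- `N(G, F)`: the number of subgraphs of `G` isomorphic to `F`.  All graphs live on the vertex set
`Fin n`; isolated vertices play no role, so this is the number of copies of `F` in `G`. -/
noncomputable def count {n : ℕ} (G F : SimpleGraph (Fin n)) : ℕ :=
  Set.ncard {G' : SimpleGraph (Fin n) | G' ≤ G ∧ Nonempty (G' ≃g F)}

/-- `E N(G(n,p), F) = N(K_n, F) p ^ e(F)`: the expected number of copies of `F` in `G(n,p)`. -/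
noncomputable def expCount {n : ℕ} (F : SimpleGraph (Fin n)) (p : ℝ) : ℝ :=
  (count ⊤ F : ℝ) * p ^ F.edgeSet.ncard

/-- `p_E(n,H)`: the least `p ∈ [0,1]` with `E N(G(n,p),F) ≥ 1/2` for every subgraph `F` of `H`. -/
noncomputable def pE {n : ℕ} (H : SimpleGraph (Fin n)) : ℝ :=
  sInf {p : ℝ | 0 ≤ p ∧ p ≤ 1 ∧ ∀ F : SimpleGraph (Fin n), F ≤ H → 1 / 2 ≤ expCount F p}

/-- `p~_E(n,H)`: the least `p ∈ [0,1]` with `E N(G(n,p),F) ≥ N(H,F)/2` for every `F ⊆ H`. -/
noncomputable def pTilde {n : ℕ} (H : SimpleGraph (Fin n)) : ℝ :=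
  sInf {p : ℝ | 0 ≤ p ∧ p ≤ 1 ∧
    ∀ F : SimpleGraph (Fin n), F ≤ H → (count H F : ℝ) / 2 ≤ expCount F p}

/-- (1) Let `H` be any graph on `n` vertices and `q ∈ [0,1]` a density at which every subgraph of
`H` has expected count at least `1/2`.  Then for every forest `F` (of arbitrary degrees) the number
of copies of `F` in `H` is at most the expected number of copies of `F` in `G(n,p)`, where
`p = min {1, max {55 q, 8 (1 + log (2n)) / n}}`.
(2) Hence `p~_E(n,H) ≤ max {55 p_E(n,H), 8 (1 + log (2n)) / n}` for every forest `H`.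
(3) The infimum defining `p_E(n,H)` is attained. -/
theorem result (n : ℕ) (H : SimpleGraph (Fin n)) :
    (∀ q : ℝ, 0 ≤ q → q ≤ 1 →
      (∀ F : SimpleGraph (Fin n), F ≤ H → 1 / 2 ≤ expCount F q) →
      ∀ F : SimpleGraph (Fin n), F.IsAcyclic →
        (count H F : ℝ) ≤ expCount F (min 1 (max (55 * q) (8 * (1 + Real.log (2 * n)) / n)))) ∧
    (H.IsAcyclic → pTilde H ≤ max (55 * pE H) (8 * (1 + Real.log (2 * n)) / n)) ∧
    (0 ≤ pE H ∧ pE H ≤ 1 ∧ ∀ F : SimpleGraph (Fin n), F ≤ H → 1 / 2 ≤ expCount F (pE H)) := by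
  classical
  have main : ∀ q : ℝ, 0 ≤ q → q ≤ 1 →
      (∀ F : SimpleGraph (Fin n), F ≤ H → 1 / 2 ≤ expCount F q) →
      ∀ F : SimpleGraph (Fin n), F.IsAcyclic →
        (count H F : ℝ) ≤ expCount F (min 1 (max (55 * q) (8 * (1 + Real.log (2 * n)) / n))) :=
    fun q hq0 hq1 hyp F hF => Vale.Agent.P064.forest_case n H q hq0 hq1 hyp F hF
  have hclosed : IsClosed {p : ℝ | 0 ≤ p ∧ p ≤ 1 ∧
      ∀ F : SimpleGraph (Fin n), F ≤ H → 1 / 2 ≤ expCount F p} := by
    have : {p : ℝ | 0 ≤ p ∧ p ≤ 1 ∧ ∀ F : SimpleGraph (Fin n), F ≤ H → 1 / 2 ≤ expCount F p}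
        = Set.Ici 0 ∩ (Set.Iic 1 ∩ ⋂ F : SimpleGraph (Fin n), ⋂ _ : F ≤ H,
          {p : ℝ | 1 / 2 ≤ expCount F p}) := by
      ext p
      simp only [Set.mem_ofPred_eq, Set.mem_inter_iff, Set.mem_Ici, Set.mem_Iic, Set.mem_iInter]
    rw [this]
    refine isClosed_Ici.inter (isClosed_Iic.inter ?_)
    refine isClosed_iInter fun F => isClosed_iInter fun _ => ?_
    refine isClosed_le continuous_const ?_
    unfold expCount
    fun_prop
  have hpos : ∀ F : SimpleGraph (Fin n), (1 : ℝ) ≤ (count ⊤ F : ℝ) := by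
    intro F
    have : 0 < count ⊤ F := by
      unfold count
      rw [Set.ncard_pos (Set.toFinite _)]
      exact ⟨F, le_top, ⟨SimpleGraph.Iso.refl⟩⟩
    exact_mod_cast this
  have hE : pE H ∈ {p : ℝ | 0 ≤ p ∧ p ≤ 1 ∧
      ∀ F : SimpleGraph (Fin n), F ≤ H → 1 / 2 ≤ expCount F p} := by
    refine hclosed.csInf_mem ⟨1, zero_le_one, le_rfl, fun F _ => ?_⟩ ⟨0, fun p hp => hp.1⟩
    unfold expCount
    rw [one_pow, mul_one]
    linarith [hpos F]
  refine ⟨main, fun hH => ?_, hE⟩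
  obtain ⟨h0, h1, hyp⟩ := hE
  have hmem : min 1 (max (55 * pE H) (8 * (1 + Real.log (2 * n)) / n)) ∈
      {p : ℝ | 0 ≤ p ∧ p ≤ 1 ∧
        ∀ F : SimpleGraph (Fin n), F ≤ H → (count H F : ℝ) / 2 ≤ expCount F p} := by
    refine ⟨le_min zero_le_one (le_max_of_le_left (by positivity)), min_le_left _ _,
      fun F hF => ?_⟩
    have h2 := main (pE H) h0 h1 hyp F (hH.anti hF)
    have h3 : (0 : ℝ) ≤ (count H F : ℝ) := by positivity
    linarith
  calc pTilde H ≤ min 1 (max (55 * pE H) (8 * (1 + Real.log (2 * n)) / n)) :=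
        csInf_le ⟨0, fun p hp => hp.1⟩ hmem
    _ ≤ _ := min_le_right _ _

end Vale.Agent.Results.P064.Forests
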