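import Mathlib
import Vale.Agent.P064.ForestMain

namespace Vale.Agent.Results.P064.StarForests

/-- `N(G, F)`: the number of subgraphs of `G` isomorphic to `F`.  All graphs live on the vertex set
`Fin n`; isolated vertices play no role, so this is the number of copies of `F` in `G`. -/
noncomputable def count {n : ℕ} (G F : SimpleGraph (Fin n)) : ℕ :=
  Set.ncard {G' : SimpleGraph (Fin n) | G' ≤ G ∧ Nonempty (G' ≃g F)}

/-- `E N(G(n,p), F) = N(K_n, F) p ^ e(F)`: the expected number of copies of `F` in `G(n,p)`. -/
noncomputable def expCount {n : ℕ} (F : SimpleGraph (Fin n)) (p : ℝ) : ℝ :=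
  (count ⊤ F : ℝ) * p ^ F.edgeSet.ncard

/-- `F` is a star forest: every edge has an endpoint of degree one, i.e. every connected component
of `F` is a star `K_{1,t}` (`t ≥ 1`) or an isolated vertex. -/
def IsStarForest {n : ℕ} (F : SimpleGraph (Fin n)) : Prop :=
  ∀ a b, F.Adj a b → (∀ x, F.Adj a x → x = b) ∨ (∀ x, F.Adj b x → x = a)

/-- Let `H` be a graph on `n` vertices and `q ∈ [0,1]` a density at which every subgraph of `H` has
expected count at least `1/2` in `G(n,q)` (so `q = p_E(n,H)` is allowed).
(1) For every star forest `F` (stars of arbitrary, different sizes), the number of copies of `F`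
in `H` is at most the expected number of copies of `F` in `G(n, min {1, 2070 q})`.
(2) Hence, if `H` itself is a star forest, this holds for every subgraph `F` of `H`. -/
theorem result (n : ℕ) (H : SimpleGraph (Fin n)) (q : ℝ) (hq0 : 0 ≤ q) (hq1 : q ≤ 1)
    (hyp : ∀ F : SimpleGraph (Fin n), F ≤ H → 1 / 2 ≤ expCount F q) :
    (∀ F : SimpleGraph (Fin n), IsStarForest F →
      (count H F : ℝ) ≤ expCount F (min 1 (2070 * q))) ∧
    (IsStarForest H → ∀ F : SimpleGraph (Fin n), F ≤ H →
      (count H F : ℝ) ≤ expCount F (min 1 (2070 * q))) := by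
  have main : ∀ F : SimpleGraph (Fin n), IsStarForest F →
      (count H F : ℝ) ≤ expCount F (min 1 (2070 * q)) :=
    fun F hF => Vale.Agent.P064.star_forest_case n H q hq0 hq1 hyp F hF
  refine ⟨main, fun hH F hFH => main F ?_⟩
  intro a b hab
  rcases hH a b (hFH hab) with h | h
  · exact Or.inl fun x hx => h x (hFH hx)
  · exact Or.inr fun x hx => h x (hFH hx)

end Vale.Agent.Results.P064.StarForests
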